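/-
S0066 (row 47) — package F3 (the cascade), core part (helper32).

`cascade_core` is the vertex-cover induction of the blueprint (`notes/s0066_blueprint.md`, F3),
proved from the level rule `rule_lvl` (package F0) taken as a HYPOTHESIS (`RuleLvl`), so that this
module depends only on the frozen definitions `Helper5/S0066/{Defs,FarDefs}`.
The Spec-verbatim statement `cascade` is in `Helper32/S0066/F3.lean`.
-/
import Crest.Agent.Helper5.S0066.FarDefs

set_option autoImplicit false

namespace Crest.Agent.Helper32.S0066

open Crest.Agent.Helper5.S0066 Line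

variable {h : ℕ}

/-- The conclusion of the level rule (package F0, `rule_lvl`) for a fixed matrix `B` and a fixed
sample `(i, i')`, as a proposition. -/
def RuleLvl (B : Line h → Line h → Bool) (i i' : Fin (2 ^ h)) : Prop :=
  ∀ (anyT : Bool) (j : Fin h) (s : Bool) (c : ℕ) {yu yw yu' yw' : Fin (2 ^ h)},
    yu.val / 2 ^ (j.val + 1) = c → yw.val / 2 ^ (j.val + 1) = c →
    yu'.val / 2 ^ (j.val + 1) = c → yw'.val / 2 ^ (j.val + 1) = c →
    GoodRow B i' (core j (kLo s) yu) → GoodRow B i' (core j (kHi s) yw) →
    GoodCol B i (core j (kLo s) yu') → GoodCol B i (core j (kHi s) yw') →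
    ∀ {p q : Line h}, GoodRow B i' p → GoodCol B i q →
    InCls j.val (2 * c + s.toNat) p → InCls j.val (2 * c + s.toNat) q →
    (if anyT = true then q.lvl = j.val else p.lvl = j.val) →
    B p q = false →
    B (core j (kLo s) yu) (core j (kLo s) yu') = false ∨ B (core j (kLo s) yu) q = false ∨
    B (core j (kLo s) yu) (core j (kHi s) yw') = false ∨ B p (core j (kLo s) yu') = false ∨
    B p (core j (kHi s) yw') = false ∨ B (core j (kHi s) yw) (core j (kLo s) yu') = false ∨
    B (core j (kHi s) yw) q = false ∨ B (core j (kHi s) yw) (core j (kHi s) yw') = false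

theorem mem_X0 {B : Line h → Line h → Bool} {i i' x : Fin (2 ^ h)} :
    x ∈ X0 B i i' ↔
      GoodRow B i' (leaf x) ∧ GoodCol B i (leaf x) ∧ B (leaf x) (leaf x) = false := by
  simp only [X0, Finset.mem_filter, Finset.mem_univ, true_and]

theorem mem_badRows {B : Line h → Line h → Bool} {i' : Fin (2 ^ h)} {p : Line h} :
    p ∈ badRows B i' ↔ p.isPay = true ∧ ¬ GoodRow B i' p := by
  simp only [badRows, Finset.mem_filter, Finset.mem_univ, true_and]

theorem mem_badCols {B : Line h → Line h → Bool} {i : Fin (2 ^ h)} {q : Line h} :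
    q ∈ badCols B i ↔ q.isPay = true ∧ ¬ GoodCol B i q := by
  simp only [badCols, Finset.mem_filter, Finset.mem_univ, true_and]

/-- The core lines of the class `c` of level `L + 1` lie in that class. -/
theorem inCls_core {L c : ℕ} (hLh : L < h) (k : Fin 3) {y : Fin (2 ^ h)}
    (hy : y.val / 2 ^ (L + 1) = c) : InCls (L + 1) c (core ⟨L, hLh⟩ k y) :=
  ⟨rfl, le_refl _, hy⟩

/-- The subtree of a child is contained in the subtree of the parent. -/
theorem inCls_child {L c s : ℕ} (hs : s ≤ 1) {p : Line h} (hp : InCls L (2 * c + s) p) :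
    InCls (L + 1) c p := by
  refine ⟨hp.1, ?_, ?_⟩
  · have := hp.2.1
    omega
  · have h3 := hp.2.2
    rw [pow_succ, ← Nat.div_div_eq_div_mul, h3]
    omega

open Classical in
/-- The subtrees of the two children are disjoint parts of the subtree of the parent. -/
theorem card_filter_children (S : Finset (Line h)) (L c : ℕ) :
    (S.filter fun p => InCls L (2 * c) p).card + (S.filter fun p => InCls L (2 * c + 1) p).card ≤
      (S.filter fun p => InCls (L + 1) c p).card := by
  rw [← Finset.card_union_of_disjoint]
  · apply Finset.card_le_card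
    intro p hp
    rcases Finset.mem_union.1 hp with hp | hp
    · have hp' := Finset.mem_filter.1 hp
      exact Finset.mem_filter.2 ⟨hp'.1, inCls_child (s := 0) (by omega) hp'.2⟩
    · have hp' := Finset.mem_filter.1 hp
      exact Finset.mem_filter.2 ⟨hp'.1, inCls_child (s := 1) (by omega) hp'.2⟩
  · refine Finset.disjoint_filter.2 ?_
    intro p _ h1 h2
    have e1 := h1.2.2
    have e2 := h2.2.2
    omega

open Classical in
/-- If all good rows of one core kind of the class are in the cover, the cover together with the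
bad rows is at least as large as the class. -/
theorem card_class_le_rows (B : Line h → Line h → Bool) (i' : Fin (2 ^ h))
    (Cr : Finset (Line h)) (L c : ℕ) (hLh : L < h) (k : Fin 3)
    (hall : ∀ y : Fin (2 ^ h), y.val / 2 ^ (L + 1) = c →
      GoodRow B i' (core ⟨L, hLh⟩ k y) → core ⟨L, hLh⟩ k y ∈ Cr) :
    ((Finset.univ : Finset (Fin (2 ^ h))).filter fun y => y.val / 2 ^ (L + 1) = c).card ≤
      (Cr.filter fun p => InCls (L + 1) c p).card +
        ((badRows B i').filter fun p => InCls (L + 1) c p).card := by
  have hinj : Function.Injective (fun y : Fin (2 ^ h) => (core ⟨L, hLh⟩ k y : Line h)) := by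
    intro y y' hyy
    injection hyy
  rw [← Finset.card_image_of_injective _ hinj]
  refine le_trans (Finset.card_le_card ?_) (Finset.card_union_le _ _)
  intro p hp
  rcases Finset.mem_image.1 hp with ⟨y, hy, rfl⟩
  have hyc := (Finset.mem_filter.1 hy).2
  by_cases hg : GoodRow B i' (core ⟨L, hLh⟩ k y)
  · exact Finset.mem_union_left _ (Finset.mem_filter.2 ⟨hall y hyc hg, inCls_core hLh k hyc⟩)
  · exact Finset.mem_union_right _
      (Finset.mem_filter.2 ⟨mem_badRows.2 ⟨rfl, hg⟩, inCls_core hLh k hyc⟩)

open Classical in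
/-- Column version of `card_class_le_rows`. -/
theorem card_class_le_cols (B : Line h → Line h → Bool) (i : Fin (2 ^ h))
    (Cc : Finset (Line h)) (L c : ℕ) (hLh : L < h) (k : Fin 3)
    (hall : ∀ y : Fin (2 ^ h), y.val / 2 ^ (L + 1) = c →
      GoodCol B i (core ⟨L, hLh⟩ k y) → core ⟨L, hLh⟩ k y ∈ Cc) :
    ((Finset.univ : Finset (Fin (2 ^ h))).filter fun y => y.val / 2 ^ (L + 1) = c).card ≤
      (Cc.filter fun p => InCls (L + 1) c p).card +
        ((badCols B i).filter fun p => InCls (L + 1) c p).card := by
  have hinj : Function.Injective (fun y : Fin (2 ^ h) => (core ⟨L, hLh⟩ k y : Line h)) := by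
    intro y y' hyy
    injection hyy
  rw [← Finset.card_image_of_injective _ hinj]
  refine le_trans (Finset.card_le_card ?_) (Finset.card_union_le _ _)
  intro p hp
  rcases Finset.mem_image.1 hp with ⟨y, hy, rfl⟩
  have hyc := (Finset.mem_filter.1 hy).2
  by_cases hg : GoodCol B i (core ⟨L, hLh⟩ k y)
  · exact Finset.mem_union_left _ (Finset.mem_filter.2 ⟨hall y hyc hg, inCls_core hLh k hyc⟩)
  · exact Finset.mem_union_right _
      (Finset.mem_filter.2 ⟨mem_badCols.2 ⟨rfl, hg⟩, inCls_core hLh k hyc⟩)

open Classical in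
/-- **F3, core.** The cascade: vertex-cover induction on the level `L`, from the level rule. -/
theorem cascade_core (B : Line h → Line h → Bool) (i i' : Fin (2 ^ h))
    (hrule : RuleLvl B i i') (Cr Cc : Finset (Line h)) (L : ℕ) (hL : L ≤ h) (c : ℕ)
    (hcov : ∀ p q : Line h, GoodRow B i' p → GoodCol B i q → InCls L c p → InCls L c q →
      (p.lvl = L ∨ q.lvl = L) → B p q = false → p ∈ Cr ∨ q ∈ Cc) :
    ((X0 B i i').filter fun x => x.val / 2 ^ L = c).card ≤
      (Cr.filter fun p => InCls L c p).card + (Cc.filter fun q => InCls L c q).card +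
      ((badRows B i').filter fun p => InCls L c p).card +
      ((badCols B i).filter fun q => InCls L c q).card := by
  induction L generalizing c with
  | zero =>
    by_cases hne : ((X0 B i i').filter fun x => x.val / 2 ^ 0 = c).Nonempty
    · obtain ⟨x, hx⟩ := hne
      have hx0 := (Finset.mem_filter.1 hx).1
      have hxc : x.val / 2 ^ 0 = c := (Finset.mem_filter.1 hx).2
      obtain ⟨hgr, hgc, hB⟩ := mem_X0.1 hx0
      have hin : InCls 0 c (leaf x) := ⟨rfl, le_refl _, hxc⟩
      have hle1 : ((X0 B i i').filter fun x => x.val / 2 ^ 0 = c).card ≤ 1 := by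
        apply Finset.card_le_one.2
        intro a ha b hb
        have ha' : a.val / 2 ^ 0 = c := (Finset.mem_filter.1 ha).2
        have hb' : b.val / 2 ^ 0 = c := (Finset.mem_filter.1 hb).2
        apply Fin.ext
        simp only [pow_zero, Nat.div_one] at ha' hb'
        omega
      rcases hcov (leaf x) (leaf x) hgr hgc hin hin (Or.inl rfl) hB with hr | hc
      · have : 0 < (Cr.filter fun p => InCls 0 c p).card :=
          Finset.card_pos.2 ⟨leaf x, Finset.mem_filter.2 ⟨hr, hin⟩⟩
        omega
      · have : 0 < (Cc.filter fun p => InCls 0 c p).card :=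
          Finset.card_pos.2 ⟨leaf x, Finset.mem_filter.2 ⟨hc, hin⟩⟩
        omega
    · rw [Finset.not_nonempty_iff_eq_empty] at hne
      rw [hne, Finset.card_empty]
      exact Nat.zero_le _
  | succ L ih =>
    have hLh : L < h := by omega
    have hX : ((X0 B i i').filter fun x => x.val / 2 ^ (L + 1) = c).card ≤
        ((Finset.univ : Finset (Fin (2 ^ h))).filter fun y => y.val / 2 ^ (L + 1) = c).card :=
      Finset.card_le_card (Finset.filter_subset_filter _ (Finset.subset_univ _))
    by_cases hA : ∃ k : Fin 3, ∀ y : Fin (2 ^ h), y.val / 2 ^ (L + 1) = c →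
        GoodRow B i' (core ⟨L, hLh⟩ k y) → core ⟨L, hLh⟩ k y ∈ Cr
    · obtain ⟨k, hk⟩ := hA
      have := card_class_le_rows B i' Cr L c hLh k hk
      omega
    by_cases hB : ∃ k : Fin 3, ∀ y : Fin (2 ^ h), y.val / 2 ^ (L + 1) = c →
        GoodCol B i (core ⟨L, hLh⟩ k y) → core ⟨L, hLh⟩ k y ∈ Cc
    · obtain ⟨k, hk⟩ := hB
      have := card_class_le_cols B i Cc L c hLh k hk
      omega
    push Not at hA hB
    choose yr hyr hgr hnr using hA
    choose yc hyc hgc hnc using hB
    -- the cells core × core between the chosen uncovered good cores are kept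
    have hkept : ∀ k k' : Fin 3,
        B (core ⟨L, hLh⟩ k (yr k)) (core ⟨L, hLh⟩ k' (yc k')) ≠ false := by
      intro k k' hf
      rcases hcov _ _ (hgr k) (hgc k') (inCls_core hLh k (hyr k)) (inCls_core hLh k' (hyc k'))
        (Or.inl rfl) hf with h1 | h1
      · exact hnr k h1
      · exact hnc k' h1
    -- the cover covers the hooks of both children
    have hchild : ∀ s : Bool, ∀ p q : Line h, GoodRow B i' p → GoodCol B i q →
        InCls L (2 * c + s.toNat) p → InCls L (2 * c + s.toNat) q →
        (p.lvl = L ∨ q.lvl = L) → B p q = false → p ∈ Cr ∨ q ∈ Cc := by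
      intro s p q hp hq hpc hqc htop hpq
      have hs1 : s.toNat ≤ 1 := Bool.toNat_le s
      have hpc' := inCls_child hs1 hpc
      have hqc' := inCls_child hs1 hqc
      obtain ⟨anyT, hany⟩ :
          ∃ anyT : Bool, (if anyT = true then q.lvl = L else p.lvl = L) := by
        rcases htop with h1 | h1
        · exact ⟨false, by simpa using h1⟩
        · exact ⟨true, by simpa using h1⟩
      have hr := hrule anyT ⟨L, hLh⟩ s c (hyr (kLo s)) (hyr (kHi s)) (hyc (kLo s))
        (hyc (kHi s)) (hgr _) (hgr _) (hgc _) (hgc _) hp hq hpc hqc hany hpq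
      rcases hr with h1 | h1 | h1 | h1 | h1 | h1 | h1 | h1
      · exact absurd h1 (hkept _ _)
      · rcases hcov _ _ (hgr _) hq (inCls_core hLh _ (hyr _)) hqc' (Or.inl rfl) h1 with h2 | h2
        · exact absurd h2 (hnr _)
        · exact Or.inr h2
      · exact absurd h1 (hkept _ _)
      · rcases hcov _ _ hp (hgc _) hpc' (inCls_core hLh _ (hyc _)) (Or.inr rfl) h1 with h2 | h2
        · exact Or.inl h2
        · exact absurd h2 (hnc _)
      · rcases hcov _ _ hp (hgc _) hpc' (inCls_core hLh _ (hyc _)) (Or.inr rfl) h1 with h2 | h2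
        · exact Or.inl h2
        · exact absurd h2 (hnc _)
      · exact absurd h1 (hkept _ _)
      · rcases hcov _ _ (hgr _) hq (inCls_core hLh _ (hyr _)) hqc' (Or.inl rfl) h1 with h2 | h2
        · exact absurd h2 (hnr _)
        · exact Or.inr h2
      · exact absurd h1 (hkept _ _)
    have ih0 := ih (by omega) (2 * c) (fun p q hp hq hpc hqc => hchild false p q hp hq hpc hqc)
    have ih1 := ih (by omega) (2 * c + 1) (fun p q hp hq hpc hqc => hchild true p q hp hq hpc hqc)
    have hsplit : ((X0 B i i').filter fun x => x.val / 2 ^ (L + 1) = c).card ≤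
        ((X0 B i i').filter fun x => x.val / 2 ^ L = 2 * c).card +
          ((X0 B i i').filter fun x => x.val / 2 ^ L = 2 * c + 1).card := by
      refine le_trans (Finset.card_le_card ?_) (Finset.card_union_le _ _)
      intro x hx
      have h1 := Finset.mem_filter.1 hx
      have h2 : x.val / 2 ^ L / 2 = c := by
        rw [Nat.div_div_eq_div_mul, ← pow_succ]
        exact h1.2
      have h3 : x.val / 2 ^ L = 2 * c ∨ x.val / 2 ^ L = 2 * c + 1 := by omega
      rcases h3 with h3 | h3
      · exact Finset.mem_union_left _ (Finset.mem_filter.2 ⟨h1.1, h3⟩)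
      · exact Finset.mem_union_right _ (Finset.mem_filter.2 ⟨h1.1, h3⟩)
    have c1 := card_filter_children Cr L c
    have c2 := card_filter_children Cc L c
    have c3 := card_filter_children (badRows B i') L c
    have c4 := card_filter_children (badCols B i) L c
    omega

end Crest.Agent.Helper32.S0066
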