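/-
S0066 (row 47) — package F3 (the cascade), `Spec`-verbatim statement (helper32).

`cascade` = `cascade_core` (`Helper32/S0066/F3Core.lean`) fed with the level rule `rule_lvl`
(package F0, helper60).  Blueprint: `notes/s0066_blueprint.md`, F3.
-/
import Crest.Agent.Helper32.S0066.F3Core
import Crest.Agent.Helper60.S0066.F0

set_option autoImplicit false

namespace Crest.Agent.Helper32.S0066

open Crest.Agent.Helper5.S0066 Line

variable {h : ℕ}

open Classical in
/-- **F3.** The cascade (vertex-cover induction on the level `L`).  If `(Cr, Cc)` covers all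
deleted good cells of the hook of the class `c` of level `L`, then it has at least as many lines
in the subtree as there are `X0`-leaves in the class, up to the bad lines of the subtree. -/
theorem cascade (B : Line h → Line h → Bool) (hfree : HFree B) (i i' : Fin (2 ^ h))
    (hmm : MMclean B i i') (L : ℕ) (hL : L ≤ h) (c : ℕ) (Cr Cc : Finset (Line h))
    (hcov : ∀ p q : Line h, GoodRow B i' p → GoodCol B i q → InCls L c p → InCls L c q →
      (p.lvl = L ∨ q.lvl = L) → B p q = false → p ∈ Cr ∨ q ∈ Cc) :
    ((X0 B i i').filter fun x => x.val / 2 ^ L = c).card ≤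
      (Cr.filter fun p => InCls L c p).card + (Cc.filter fun q => InCls L c q).card +
      ((badRows B i').filter fun p => InCls L c p).card +
      ((badCols B i).filter fun q => InCls L c q).card :=
  cascade_core B i i'
    (fun anyT j s c _ _ _ _ hyu hyw hyu' hyw' hu hw hu' hw' _ _ hp hq hpc hqc htop hpq =>
      Crest.Agent.Helper60.S0066.rule_lvl B hfree i i' hmm anyT j s c hyu hyw hyu' hyw'
        hu hw hu' hw' hp hq hpc hqc htop hpq)
    Cr Cc L hL c hcov

end Crest.Agent.Helper32.S0066
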